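import Vale.Agent.Lib.P073.WeakDeriv

namespace Vale.Agent.Lib.P073

open MeasureTheory Filter Topology ContinuousLinearMap Metric
open scoped ContDiff Convolution Manifold

variable {E : Type*} [NormedAddCommGroup E] [InnerProductSpace ℝ E] [FiniteDimensional ℝ E]
  [MeasurableSpace E] [BorelSpace E]

/-- The weak derivative vanishes a.e. where the function vanishes on an open set. -/
theorem ae_eq_zero_of_isWeakPartial (Ω K : Set E) (hΩ : IsOpen Ω) (hK : IsCompact K)
    (g h : E → ℝ) (v : E) (hh : IntegrableOn h Ω volume)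
    (hw : IsWeakPartial Ω g h v) (hg0 : ∀ x ∈ Ω \ K, g x = 0) :
    ∀ᵐ x ∂(volume : Measure E), x ∈ Ω \ K → h x = 0 := by
  have hU : IsOpen (Ω \ K) := hΩ.sdiff hK.isClosed
  refine hU.ae_eq_zero_of_integral_contDiff_smul_eq_zero
    (hh.mono_set Set.sdiff_subset).locallyIntegrableOn ?_
  intro ψ hψ hψc hψU
  have h1 := hw ψ hψ hψc (hψU.trans Set.sdiff_subset)
  have h2 : ∫ x in Ω, g x * fderiv ℝ ψ x v = 0 := by
    apply setIntegral_eq_zero_of_forall_eq_zero
    intro x hx
    by_cases hxK : x ∈ K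
    · have : x ∉ tsupport ψ := fun hx' => (hψU hx').2 hxK
      rw [fderiv_apply_eq_zero_of_notMem_tsupport this, mul_zero]
    · rw [hg0 x ⟨hx, hxK⟩, zero_mul]
  rw [h2] at h1
  have h3 : ∫ x, ψ x • h x = ∫ x in Ω, h x * ψ x := by
    rw [setIntegral_eq_integral_of_forall_compl_eq_zero]
    · refine integral_congr_ae (Eventually.of_forall fun x => ?_)
      simp [mul_comm]
    · intro x hx
      have : x ∉ tsupport ψ := fun hx' => hx (hψU hx').1
      rw [image_eq_zero_of_notMem_tsupport this, mul_zero]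
  rw [h3]
  linarith

/-- Extension by zero of a function vanishing near the boundary keeps the weak derivative. -/
theorem isWeakPartial_univ_indicator (Ω K : Set E) (hΩ : IsOpen Ω) (hK : IsCompact K)
    (hKΩ : K ⊆ Ω) (g h : E → ℝ) (v : E) (hh : IntegrableOn h Ω volume)
    (hw : IsWeakPartial Ω g h v) (hg0 : ∀ x ∈ Ω \ K, g x = 0) :
    IsWeakPartial Set.univ (Ω.indicator g) (Ω.indicator h) v := by
  have hae := ae_eq_zero_of_isWeakPartial Ω K hΩ hK g h v hh hw hg0
  obtain ⟨r, hr, hrΩ⟩ := hK.exists_cthickening_subset_open hΩ hKΩ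
  have hKint : K ⊆ interior (cthickening r K) :=
    interior_maximal (thickening_subset_cthickening r K) isOpen_thickening
      |>.trans' (self_subset_thickening hr K)
  obtain ⟨χ, hχ1, hχ0, -⟩ :=
    exists_contMDiffMap_one_nhds_of_subset_interior 𝓘(ℝ, E) hK.isClosed hKint (n := (⊤ : ℕ∞))
  have hχs : ContDiff ℝ ∞ χ := χ.contMDiff.contDiff
  have hχt : tsupport χ ⊆ cthickening r K := by
    apply closure_minimal _ isClosed_cthickening
    intro x hx
    by_contra hxt
    exact hx (hχ0 x hxt)
  have hχc : HasCompactSupport χ := hK.cthickening.of_isClosed_subset (isClosed_tsupport _) hχt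
  intro φ hφ _ _
  set ζ : E → ℝ := fun x => χ x * φ x with hζ
  have hζs : ContDiff ℝ ∞ ζ := hχs.mul hφ
  have hζc : HasCompactSupport ζ := hχc.mul_right
  have hζt : tsupport ζ ⊆ Ω := (tsupport_mul_subset_left.trans hχt).trans hrΩ
  have h1 := hw ζ hζs hζc hζt
  simp only [Measure.restrict_univ]
  have e1 : ∫ x, Ω.indicator g x * fderiv ℝ φ x v = ∫ x in Ω, g x * fderiv ℝ ζ x v := by
    rw [← integral_indicator hΩ.measurableSet]
    refine integral_congr_ae (Eventually.of_forall fun x => ?_)
    by_cases hx : x ∈ Ω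
    · simp only [Set.indicator_of_mem hx]
      by_cases hxK : x ∈ K
      · have hev : ζ =ᶠ[𝓝 x] φ := by
          have : ∀ᶠ y in 𝓝 x, χ y = 1 := hχ1.filter_mono (nhds_le_nhdsSet hxK)
          filter_upwards [this] with y hy
          simp [hζ, hy]
        rw [hev.fderiv_eq]
      · rw [hg0 x ⟨hx, hxK⟩, zero_mul, zero_mul]
    · simp only [Set.indicator_of_notMem hx, zero_mul]
  have e2 : ∫ x, Ω.indicator h x * φ x = ∫ x in Ω, h x * ζ x := by
    rw [← integral_indicator hΩ.measurableSet]
    refine integral_congr_ae ?_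
    filter_upwards [hae] with x hxae
    by_cases hx : x ∈ Ω
    · simp only [Set.indicator_of_mem hx]
      by_cases hxK : x ∈ K
      · have : χ x = 1 := hχ1.self_of_nhdsSet x hxK
        simp [hζ, this]
      · rw [hxae ⟨hx, hxK⟩, zero_mul, zero_mul]
    · simp only [Set.indicator_of_notMem hx, zero_mul]
  rw [e1, e2, h1]

end Vale.Agent.Lib.P073
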