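import Mathlib

namespace Vale.Agent.Lib.P073

open MeasureTheory Filter Topology

variable {E : Type*} [NormedAddCommGroup E] [InnerProductSpace ℝ E]

theorem monotone_across (Ω K : Set E) (hΩ : IsOpen Ω) (hK : IsClosed K) (hKΩ : K ⊆ Ω)
    (f : E → E) (hmono : ∀ x ∈ Ω, ∀ y ∈ Ω, 0 ≤ inner ℝ (f x - f y) (x - y))
    (hid : ∀ x ∈ Ω \ K, f x = x) (x y : E) (hx : x ∈ Ω) (hy : y ∉ Ω) :
    0 ≤ inner ℝ (f x - y) (x - y) := by
  by_cases hxK : x ∈ K
  · have hpre : IsPreconnected (segment ℝ x y) := (convex_segment x y).isPreconnected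
    obtain ⟨z, hzs, hzΩ, hzK⟩ := hpre Ω Kᶜ hΩ hK.isOpen_compl
      (fun w _ => by
        by_cases hw : w ∈ K
        · exact Or.inl (hKΩ hw)
        · exact Or.inr hw)
      ⟨x, left_mem_segment ℝ x y, hx⟩
      ⟨y, right_mem_segment ℝ x y, fun hyK => hy (hKΩ hyK)⟩
    obtain ⟨a, b, ha, hb, hab, rfl⟩ := hzs
    have hb0 : 0 < b := by
      rcases hb.lt_or_eq with h | h
      · exact h
      · exfalso
        apply hzK
        have ha1 : a = 1 := by linarith
        rw [← h, ha1]
        simpa using hxK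
    have hfz : f (a • x + b • y) = a • x + b • y := hid _ ⟨hzΩ, hzK⟩
    have h1 := hmono x hx _ hzΩ
    rw [hfz] at h1
    have e1 : x - (a • x + b • y) = b • (x - y) := by
      have : a = 1 - b := by linarith
      rw [this]
      module
    have e2 : (a • x + b • y) - y = a • (x - y) := by
      have : b = 1 - a := by linarith
      rw [this]
      module
    rw [e1, inner_smul_right] at h1
    have h2 : 0 ≤ inner ℝ (f x - (a • x + b • y)) (x - y) := by
      by_contra hcon
      push Not at hcon
      nlinarith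
    have h3 : 0 ≤ inner ℝ ((a • x + b • y) - y) (x - y) := by
      rw [e2, inner_smul_left]
      exact mul_nonneg (by simpa using ha) real_inner_self_nonneg
    have e3 : f x - y = (f x - (a • x + b • y)) + ((a • x + b • y) - y) := by abel
    rw [e3, inner_add_left]
    exact add_nonneg h2 h3
  · rw [hid x ⟨hx, hxK⟩]
    exact real_inner_self_nonneg

open Classical in
/-- A map that is monotone on `Ω` and equals the identity near the boundary extends by the identity
to a globally monotone map. -/
theorem global_monotone (Ω K : Set E) (hΩ : IsOpen Ω) (hK : IsClosed K) (hKΩ : K ⊆ Ω)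
    (f : E → E) (hmono : ∀ x ∈ Ω, ∀ y ∈ Ω, 0 ≤ inner ℝ (f x - f y) (x - y))
    (hid : ∀ x ∈ Ω \ K, f x = x) (a b : E) :
    0 ≤ inner ℝ ((if a ∈ Ω then f a else a) - (if b ∈ Ω then f b else b)) (a - b) := by
  by_cases ha : a ∈ Ω <;> by_cases hb : b ∈ Ω
  · simpa [ha, hb] using hmono a ha b hb
  · simpa [ha, hb] using monotone_across Ω K hΩ hK hKΩ f hmono hid a b ha hb
  · have := monotone_across Ω K hΩ hK hKΩ f hmono hid b a hb ha
    simp only [ha, hb, if_true, if_false]
    have e : inner ℝ (a - f b) (a - b) = inner ℝ (f b - a) (b - a) := by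
      rw [← neg_sub (f b) a, ← neg_sub b a, inner_neg_neg]
    rw [e]
    exact this
  · simpa [ha, hb] using (real_inner_self_nonneg (x := a - b))

end Vale.Agent.Lib.P073
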