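import Mathlib

namespace Vale.Agent.Lib.P073

open MeasureTheory Filter Topology
open scoped ContDiff

variable {E : Type*} [NormedAddCommGroup E] [InnerProductSpace ℝ E] [FiniteDimensional ℝ E]

/-- A smooth strongly monotone map of a finite-dimensional Euclidean space is a bijection with
smooth inverse. -/
theorem exists_smooth_inverse_of_strongly_monotone (F : E → E) (hF : ContDiff ℝ ∞ F) (c : ℝ)
    (hc : 0 < c) (hmono : ∀ x y, c * ‖x - y‖ ^ 2 ≤ inner ℝ (F x - F y) (x - y)) :
    Function.Bijective F ∧ ∃ h : E → E, ContDiff ℝ ∞ h ∧ ∀ x, h (F x) = x := by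
  have hanti' : ∀ x y, c * ‖x - y‖ ≤ ‖F x - F y‖ := by
    intro x y
    by_cases hxy : ‖x - y‖ = 0
    · rw [hxy]; simp
    · have hpos : 0 < ‖x - y‖ := lt_of_le_of_ne (norm_nonneg _) (Ne.symm hxy)
      have h1 := hmono x y
      have h2 : inner ℝ (F x - F y) (x - y) ≤ ‖F x - F y‖ * ‖x - y‖ := real_inner_le_norm _ _
      have h3 : c * ‖x - y‖ * ‖x - y‖ ≤ ‖F x - F y‖ * ‖x - y‖ := by nlinarith
      exact le_of_mul_le_mul_right h3 hpos
  have hanti : AntilipschitzWith (Real.toNNReal c⁻¹) F := by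
    apply AntilipschitzWith.of_le_mul_dist
    intro x y
    rw [Real.coe_toNNReal _ (inv_nonneg.2 hc.le), dist_eq_norm, dist_eq_norm]
    have := hanti' x y
    rw [inv_mul_eq_div, le_div_iff₀ hc]
    linarith
  have hinj : Function.Injective F := hanti.injective
  have hcont : Continuous F := hF.continuous
  -- the derivative is coercive
  have hder : ∀ x v, c * ‖v‖ ^ 2 ≤ inner ℝ (fderiv ℝ F x v) v := by
    intro x v
    have hd : HasFDerivAt F (fderiv ℝ F x) x :=
      (hF.differentiable (by simp) x).hasFDerivAt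
    have hlim := hd.lim v (c := fun n : ℕ => (n : ℝ)) (l := atTop)
      (by simpa using tendsto_natCast_atTop_atTop (R := ℝ))
    have hlim2 : Tendsto (fun n : ℕ => inner ℝ ((n : ℝ) • (F (x + (n : ℝ)⁻¹ • v) - F x)) v) atTop
        (𝓝 (inner ℝ (fderiv ℝ F x v) v)) :=
      (continuous_id.inner continuous_const).continuousAt.tendsto.comp hlim
    refine ge_of_tendsto hlim2 ?_
    filter_upwards [eventually_gt_atTop 0] with n hn
    have hn' : (0 : ℝ) < n := by exact_mod_cast hn
    have h1 := hmono (x + (n : ℝ)⁻¹ • v) x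
    rw [add_sub_cancel_left, norm_smul, inner_smul_right] at h1
    rw [inner_smul_left]
    simp only [norm_inv, Real.norm_natCast, conj_trivial] at h1 ⊢
    have h2 : c * ((n : ℝ)⁻¹ * ‖v‖) ^ 2 * (n : ℝ) ^ 2 = c * ‖v‖ ^ 2 := by
      field_simp
    have h3 : (n : ℝ)⁻¹ * inner ℝ (F (x + (n : ℝ)⁻¹ • v) - F x) v * (n : ℝ) ^ 2
        = (n : ℝ) * inner ℝ (F (x + (n : ℝ)⁻¹ • v) - F x) v := by
      field_simp
    rw [← h2, ← h3]
    exact mul_le_mul_of_nonneg_right h1 (by positivity)
  have hderinj : ∀ x, Function.Injective (fderiv ℝ F x) := by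
    intro x
    rw [injective_iff_map_eq_zero]
    intro v hv
    have h1 := hder x v
    rw [hv, inner_zero_left] at h1
    have h2 : ‖v‖ ^ 2 ≤ 0 := by
      by_contra hcon
      push Not at hcon
      nlinarith
    have h3 : ‖v‖ = 0 := by
      have := sq_nonneg ‖v‖
      exact pow_eq_zero_iff (two_ne_zero) |>.1 (le_antisymm h2 this)
    exact norm_eq_zero.1 h3
  let F' : E → E ≃L[ℝ] E := fun x =>
    (LinearEquiv.ofInjectiveEndo (fderiv ℝ F x : E →ₗ[ℝ] E) (hderinj x)).toContinuousLinearEquiv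
  have hF' : ∀ x, ((F' x : E ≃L[ℝ] E) : E →L[ℝ] E) = fderiv ℝ F x := by
    intro x
    ext v
    simp [F']
  have hstrict : ∀ x, HasStrictFDerivAt F ((F' x : E ≃L[ℝ] E) : E →L[ℝ] E) x := by
    intro x
    rw [hF']
    exact hF.contDiffAt.hasStrictFDerivAt (by simp)
  have hopen : IsOpenMap F :=
    IsOpenMap.of_nhds_le fun x => ((hstrict x).map_nhds_eq_of_equiv).ge
  have hproper : IsProperMap F := by
    rw [isProperMap_iff_tendsto_cocompact]
    refine ⟨hcont, ?_⟩
    rw [← Metric.cobounded_eq_cocompact]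
    exact hanti.tendsto_cobounded
  have hrange : Set.range F = Set.univ := by
    apply IsClopen.eq_univ
    · exact ⟨hproper.isClosedMap.isClosed_range, hopen.isOpen_range⟩
    · exact Set.range_nonempty F
  have hsurj : Function.Surjective F := Set.range_eq_univ.1 hrange
  have hbij : Function.Bijective F := ⟨hinj, hsurj⟩
  let e : E ≃ₜ E := (Equiv.ofBijective F hbij).toHomeomorphOfContinuousOpen hcont hopen
  refine ⟨hbij, e.symm, ?_, ?_⟩
  · exact e.contDiff_symm (f₀' := F') (fun a => (hstrict a).hasFDerivAt) hF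
  · intro x
    exact e.symm_apply_apply x

end Vale.Agent.Lib.P073
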