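import Vale.Agent.Lib.P073.Defs
import Vale.Agent.Lib.P073.Extend
import Vale.Agent.Lib.P073.Monotone
import Vale.Agent.Lib.P073.Global

namespace Vale.Agent.Lib.P073

open MeasureTheory Filter Topology ContinuousLinearMap Metric
open scoped ContDiff Convolution

/-- mollified perturbation of the identity -/
noncomputable def approx (φ : ContDiffBump (0 : E3)) (c : ℝ) (u : Fin 3 → E3 → ℝ) : E3 → E3 :=
  fun x => WithLp.toLp 2 fun i =>
    x i + (1 - c) * (φ.normed (volume : Measure E3) ⋆[lsmul ℝ ℝ, volume] u i) x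

/-- its derivative matrix -/
noncomputable def approxD (φ : ContDiffBump (0 : E3)) (c : ℝ) (H : Fin 3 → Fin 3 → E3 → ℝ) :
    E3 → Matrix (Fin 3) (Fin 3) ℝ :=
  fun x => Matrix.of fun i j =>
    (if i = j then 1 else 0) + (1 - c) * (φ.normed (volume : Measure E3) ⋆[lsmul ℝ ℝ, volume] H i j) x

theorem approx_apply (φ : ContDiffBump (0 : E3)) (c : ℝ) (u : Fin 3 → E3 → ℝ) (x : E3) (i : Fin 3) :
    approx φ c u x i = x i + (1 - c) * (φ.normed (volume : Measure E3) ⋆[lsmul ℝ ℝ, volume] u i) x :=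
  rfl

theorem contDiff_convolution_normed (φ : ContDiffBump (0 : E3)) (g : E3 → ℝ)
    (hg : LocallyIntegrable g (volume : Measure E3)) :
    ContDiff ℝ ∞ (φ.normed (volume : Measure E3) ⋆[lsmul ℝ ℝ, volume] g) :=
  φ.hasCompactSupport_normed.contDiff_convolution_left _ φ.contDiff_normed hg

theorem contDiff_coord (i : Fin 3) : ContDiff ℝ ∞ fun x : E3 => x i :=
  contDiff_euclidean.1 contDiff_id i

theorem contDiff_approx_coord (φ : ContDiffBump (0 : E3)) (c : ℝ) (u : Fin 3 → E3 → ℝ)
    (hu : ∀ i, LocallyIntegrable (u i) (volume : Measure E3)) (i : Fin 3) :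
    ContDiff ℝ ∞ fun x => approx φ c u x i :=
  (contDiff_coord i).add (contDiff_const.mul (contDiff_convolution_normed φ (u i) (hu i)))

theorem contDiff_approx (φ : ContDiffBump (0 : E3)) (c : ℝ) (u : Fin 3 → E3 → ℝ)
    (hu : ∀ i, LocallyIntegrable (u i) (volume : Measure E3)) :
    ContDiff ℝ ∞ (approx φ c u) :=
  contDiff_euclidean.2 fun i => contDiff_approx_coord φ c u hu i

theorem inner_eq_sum (a b : E3) : inner ℝ a b = ∑ i, a i * b i := by
  simp [PiLp.inner_apply, mul_comm]

theorem norm_sq_eq_sum (a : E3) : ‖a‖ ^ 2 = ∑ i, a i * a i := by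
  rw [← real_inner_self_eq_norm_sq, inner_eq_sum]

/-- mollification preserves monotonicity of `id + u` -/
theorem mollified_monotone (φ : ContDiffBump (0 : E3)) (u : Fin 3 → E3 → ℝ)
    (hu : ∀ i, LocallyIntegrable (u i) (volume : Measure E3))
    (hGM : ∀ a b : E3, 0 ≤ ‖a - b‖ ^ 2 + ∑ i, (u i a - u i b) * (a i - b i)) (x y : E3) :
    0 ≤ ‖x - y‖ ^ 2 + ∑ i, ((φ.normed (volume : Measure E3) ⋆[lsmul ℝ ℝ, volume] u i) x
      - (φ.normed (volume : Measure E3) ⋆[lsmul ℝ ℝ, volume] u i) y) * (x i - y i) := by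
  set η := φ.normed (volume : Measure E3) with hη
  have hint : ∀ i z, Integrable (fun t => η t * u i (z - t)) (volume : Measure E3) := by
    intro i z
    have := convolutionExists_normed φ (u i) (hu i) z
    simpa [ConvolutionExistsAt, hη] using this
  have hconv : ∀ i z, (η ⋆[lsmul ℝ ℝ, volume] u i) z = ∫ t, η t * u i (z - t) := by
    intro i z
    simp [convolution_def]
  have hkey : ∫ t, η t * (‖x - y‖ ^ 2 + ∑ i, (u i (x - t) - u i (y - t)) * (x i - y i))
      = ‖x - y‖ ^ 2 + ∑ i, ((η ⋆[lsmul ℝ ℝ, volume] u i) x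
        - (η ⋆[lsmul ℝ ℝ, volume] u i) y) * (x i - y i) := by
    have e1 : ∀ t, η t * (‖x - y‖ ^ 2 + ∑ i, (u i (x - t) - u i (y - t)) * (x i - y i))
        = η t * ‖x - y‖ ^ 2
          + ∑ i, (η t * u i (x - t) - η t * u i (y - t)) * (x i - y i) := by
      intro t
      rw [mul_add, Finset.mul_sum]
      congr 1
      refine Finset.sum_congr rfl fun i _ => ?_
      ring
    simp only [e1]
    have hI1 : Integrable (fun t => η t * ‖x - y‖ ^ 2) (volume : Measure E3) :=
      φ.integrable_normed.mul_const _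
    have hI2 : ∀ i, Integrable
        (fun t => (η t * u i (x - t) - η t * u i (y - t)) * (x i - y i)) (volume : Measure E3) :=
      fun i => ((hint i x).sub (hint i y)).mul_const _
    have hI3 : Integrable
        (fun t => ∑ i, (η t * u i (x - t) - η t * u i (y - t)) * (x i - y i))
        (volume : Measure E3) := integrable_finsetSum _ fun i _ => hI2 i
    rw [integral_add hI1 hI3, integral_mul_const, φ.integral_normed, one_mul,
      integral_finset_sum _ fun i _ => hI2 i]
    congr 1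
    refine Finset.sum_congr rfl fun i _ => ?_
    rw [integral_mul_const, integral_sub (hint i x) (hint i y), hconv, hconv]
  rw [← hkey]
  apply integral_nonneg
  intro t
  apply mul_nonneg (φ.nonneg_normed t)
  have := hGM (x - t) (y - t)
  have e2 : x - t - (y - t) = x - y := by abel
  rw [e2] at this
  simpa using this

theorem approx_strongly_monotone (φ : ContDiffBump (0 : E3)) (c : ℝ) (hc1 : c ≤ 1)
    (u : Fin 3 → E3 → ℝ) (hu : ∀ i, LocallyIntegrable (u i) (volume : Measure E3))
    (hGM : ∀ a b : E3, 0 ≤ ‖a - b‖ ^ 2 + ∑ i, (u i a - u i b) * (a i - b i)) (x y : E3) :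
    c * ‖x - y‖ ^ 2 ≤ inner ℝ (approx φ c u x - approx φ c u y) (x - y) := by
  have h := mollified_monotone φ u hu hGM x y
  rw [inner_eq_sum]
  have e : ∑ i, (approx φ c u x - approx φ c u y) i * (x - y) i
      = ‖x - y‖ ^ 2 + (1 - c) * ∑ i, ((φ.normed (volume : Measure E3) ⋆[lsmul ℝ ℝ, volume] u i) x
      - (φ.normed (volume : Measure E3) ⋆[lsmul ℝ ℝ, volume] u i) y) * (x i - y i) := by
    rw [norm_sq_eq_sum, Finset.mul_sum, ← Finset.sum_add_distrib]
    refine Finset.sum_congr rfl fun i _ => ?_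
    simp only [PiLp.sub_apply, approx_apply]
    ring
  rw [e]
  nlinarith [sq_nonneg ‖x - y‖]

end Vale.Agent.Lib.P073
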