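import Vale.Agent.Lib.P073.Approx

namespace Vale.Agent.Lib.P073

open MeasureTheory Filter Topology ContinuousLinearMap Metric
open scoped ContDiff Convolution

theorem convolution_normed_eq_zero (φ : ContDiffBump (0 : E3)) (g : E3 → ℝ) (K : Set E3)
    (hg0 : ∀ x, x ∉ K → g x = 0) (x : E3) (hx : x ∉ cthickening φ.rOut K) :
    (φ.normed (volume : Measure E3) ⋆[lsmul ℝ ℝ, volume] g) x = 0 := by
  have hz : ∀ y ∈ ball x φ.rOut, g y = 0 := by
    intro y hy
    apply hg0
    intro hyK
    apply hx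
    rw [mem_cthickening_iff]
    refine (Metric.infEDist_le_edist_of_mem hyK).trans ?_
    rw [edist_dist]
    apply ENNReal.ofReal_le_ofReal
    rw [dist_comm]
    exact (mem_ball.1 hy).le
  have hx0 : g x = 0 := hz x (mem_ball_self φ.rOut_pos)
  have := φ.normed_convolution_eq_right (μ := (volume : Measure E3)) (g := g) (x₀ := x)
    (fun y hy => by rw [hz y hy, hx0])
  rw [this, hx0]

theorem approx_eq_self (φ : ContDiffBump (0 : E3)) (c : ℝ) (u : Fin 3 → E3 → ℝ) (K : Set E3)
    (hu0 : ∀ i x, x ∉ K → u i x = 0) (x : E3) (hx : x ∉ cthickening φ.rOut K) :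
    approx φ c u x = x := by
  ext i
  rw [approx_apply, convolution_normed_eq_zero φ (u i) K (hu0 i) x hx]
  simp

theorem isDiffeoOn_approx (φ : ContDiffBump (0 : E3)) (c : ℝ) (hc0 : 0 < c) (hc1 : c ≤ 1)
    (u : Fin 3 → E3 → ℝ) (hu : ∀ i, LocallyIntegrable (u i) (volume : Measure E3))
    (hGM : ∀ a b : E3, 0 ≤ ‖a - b‖ ^ 2 + ∑ i, (u i a - u i b) * (a i - b i))
    (K Ω : Set E3) (hu0 : ∀ i x, x ∉ K → u i x = 0) (hKΩ : cthickening φ.rOut K ⊆ Ω) :
    IsDiffeoOn Ω Ω (approx φ c u) := by
  set F := approx φ c u with hF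
  have hsm : ContDiff ℝ ∞ F := contDiff_approx φ c u hu
  obtain ⟨hbij, h, hh, hhF⟩ := exists_smooth_inverse_of_strongly_monotone F hsm c hc0
    (approx_strongly_monotone φ c hc1 u hu hGM)
  have hid : ∀ x, x ∉ Ω → F x = x := fun x hx =>
    approx_eq_self φ c u K hu0 x fun hx' => hx (hKΩ hx')
  refine ⟨hsm.contDiffOn, ⟨?_, hbij.1.injOn, ?_⟩, h, hh.contDiffOn, fun x _ => hhF x⟩
  · intro x hx
    by_contra hFx
    have h1 : F (F x) = F x := hid _ hFx
    have h2 : F x = x := hbij.1 h1
    rw [h2] at hFx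
    exact hFx hx
  · intro y hy
    obtain ⟨x, rfl⟩ := hbij.2 y
    refine ⟨x, ?_, rfl⟩
    by_contra hx
    rw [hid x hx] at hy
    exact hx hy

theorem memLp_restrict_of_continuous (Ω : Set E3) (hΩb : Bornology.IsBounded Ω) (g : E3 → ℝ)
    (hg : Continuous g) (P : ENNReal) : MemLp g P (volume.restrict Ω) := by
  have : IsFiniteMeasure ((volume : Measure E3).restrict Ω) :=
    ⟨by simpa using hΩb.measure_lt_top⟩
  have hcomp : IsCompact (closure Ω) := hΩb.isCompact_closure
  obtain ⟨C, hC⟩ := hcomp.exists_bound_of_continuousOn hg.continuousOn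
  refine MemLp.of_bound hg.aestronglyMeasurable C ?_
  have : ∀ᵐ x ∂((volume : Measure E3).restrict (closure Ω)), ‖g x‖ ≤ C :=
    (ae_restrict_iff' isClosed_closure.measurableSet).2 (Eventually.of_forall hC)
  exact ae_mono (Measure.restrict_mono subset_closure le_rfl) this

theorem fderiv_coord (i j : Fin 3) (x : E3) :
    fderiv ℝ (fun x : E3 => x i) x (EuclideanSpace.single j 1) = if i = j then 1 else 0 := by
  have h : HasFDerivAt (fun x : E3 => x i) (EuclideanSpace.proj i : E3 →L[ℝ] ℝ) x :=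
    (EuclideanSpace.proj i : E3 →L[ℝ] ℝ).hasFDerivAt
  rw [h.fderiv]
  simp

theorem memW1p_approx (p : ℝ) (Ω : Set E3) (hΩb : Bornology.IsBounded Ω)
    (φ : ContDiffBump (0 : E3)) (c : ℝ)
    (u : Fin 3 → E3 → ℝ) (H : Fin 3 → Fin 3 → E3 → ℝ)
    (hu : ∀ i, LocallyIntegrable (u i) (volume : Measure E3))
    (hH : ∀ i j, LocallyIntegrable (H i j) (volume : Measure E3))
    (hw : ∀ i j, IsWeakPartial Set.univ (u i) (H i j) (EuclideanSpace.single j 1)) :
    MemW1p p Ω (approx φ c u) (approxD φ c H) := by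
  refine ⟨fun i => ?_, fun i j => ?_, fun i j ψ hψ hψc hψΩ => ?_⟩
  · exact memLp_restrict_of_continuous Ω hΩb _ (contDiff_approx_coord φ c u hu i).continuous _
  · refine memLp_restrict_of_continuous Ω hΩb _ ?_ _
    exact continuous_const.add (continuous_const.mul (continuous_convolution_normed φ _ (hH i j)))
  · have h1 := isWeakPartial_of_contDiff Ω (fun x => approx φ c u x i)
      ((contDiff_approx_coord φ c u hu i).of_le (by simp)) (EuclideanSpace.single j 1) ψ hψ hψc hψΩ
    rw [h1]
    congr 1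
    refine integral_congr_ae (Eventually.of_forall fun x => ?_)
    have hd1 : DifferentiableAt ℝ (fun x : E3 => x i) x :=
      (contDiff_coord i).differentiable (by simp) x
    have hd2 : DifferentiableAt ℝ (φ.normed (volume : Measure E3) ⋆[lsmul ℝ ℝ, volume] u i) x :=
      (contDiff_convolution_normed φ (u i) (hu i)).differentiable (by simp) x
    have e : fderiv ℝ (fun x => approx φ c u x i) x (EuclideanSpace.single j 1)
        = approxD φ c H x i j := by
      have e1 : (fun x => approx φ c u x i) = (fun x : E3 => x i)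
          + fun x => (1 - c) * (φ.normed (volume : Measure E3) ⋆[lsmul ℝ ℝ, volume] u i) x := rfl
      rw [e1, fderiv_add hd1 (hd2.const_mul _), fderiv_const_mul hd2]
      simp only [add_apply, smul_apply, smul_eq_mul,
        fderiv_coord, fderiv_convolution_normed φ (u i) (H i j) _ (hu i) (hw i j) x]
      rfl
    simp only [e]

end Vale.Agent.Lib.P073
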