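import Mathlib

/-!
# P073: definitions (Sobolev homeomorphisms of domains of `ℝ³`, diffeomorphic approximability)
-/

namespace Vale.Agent.Lib.P073

open MeasureTheory Filter Topology
open scoped ContDiff

/-- Euclidean three-space. -/
abbrev E3 := EuclideanSpace ℝ (Fin 3)

/-- The Euclidean (Frobenius) norm of a `3 × 3` matrix. -/
noncomputable def frob (A : Matrix (Fin 3) (Fin 3) ℝ) : ℝ := Real.sqrt (∑ i, ∑ j, A i j ^ 2)

/-- `G` is a weak derivative matrix of `f` on `Ω`: `G i j` is the weak partial derivative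
`∂_j f_i`, tested against all smooth functions with compact support in `Ω`. -/
def IsWeakDeriv (Ω : Set E3) (f : E3 → E3) (G : E3 → Matrix (Fin 3) (Fin 3) ℝ) : Prop :=
  ∀ (i j : Fin 3) (φ : E3 → ℝ), ContDiff ℝ ∞ φ → HasCompactSupport φ → tsupport φ ⊆ Ω →
    ∫ x in Ω, f x i * fderiv ℝ φ x (EuclideanSpace.single j 1) = - ∫ x in Ω, G x i j * φ x

/-- `f ∈ W^{1,p}(Ω; ℝ³)` with weak derivative matrix `G`: the components of `f` and the entries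
of `G` lie in `L^p(Ω)`. -/
def MemW1p (p : ℝ) (Ω : Set E3) (f : E3 → E3) (G : E3 → Matrix (Fin 3) (Fin 3) ℝ) : Prop :=
  (∀ i, MemLp (fun x => f x i) (ENNReal.ofReal p) (volume.restrict Ω)) ∧
  (∀ i j, MemLp (fun x => G x i j) (ENNReal.ofReal p) (volume.restrict Ω)) ∧
  IsWeakDeriv Ω f G

/-- `f` restricts to a homeomorphism of `Ω` onto `Λ`. -/
def IsHomeoOn (Ω Λ : Set E3) (f : E3 → E3) : Prop :=
  ContinuousOn f Ω ∧ Set.BijOn f Ω Λ ∧ ∃ h : E3 → E3, ContinuousOn h Λ ∧ ∀ x ∈ Ω, h (f x) = x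

/-- `g` restricts to a `C^∞` diffeomorphism of `Ω` onto `Λ`. -/
def IsDiffeoOn (Ω Λ : Set E3) (g : E3 → E3) : Prop :=
  ContDiffOn ℝ ∞ g Ω ∧ Set.BijOn g Ω Λ ∧ ∃ h : E3 → E3, ContDiffOn ℝ ∞ h Λ ∧ ∀ x ∈ Ω, h (g x) = x

/-- `f : Ω → Λ` is diffeomorphically approximable in `W^{1,p}`. -/
def DiffeoApproximable (p : ℝ) (Ω Λ : Set E3) (f : E3 → E3) : Prop :=
  ∃ (G : E3 → Matrix (Fin 3) (Fin 3) ℝ) (F : ℕ → E3 → E3)
    (DF : ℕ → E3 → Matrix (Fin 3) (Fin 3) ℝ),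
    MemW1p p Ω f G ∧ (∀ k, IsDiffeoOn Ω Λ (F k) ∧ MemW1p p Ω (F k) (DF k)) ∧
    Tendsto (fun k => ∫ x in Ω, (‖F k x - f x‖ ^ p + frob (DF k x - G x) ^ p)) atTop (𝓝 0)

end Vale.Agent.Lib.P073
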