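import Vale.Agent.Lib.P073.Approx2

namespace Vale.Agent.Lib.P073

open MeasureTheory Filter Topology ContinuousLinearMap Metric
open scoped Convolution

theorem integral_abs_rpow_moll_le (φ : ContDiffBump (0 : E3)) (g : E3 → ℝ) (p : ℝ) (hp : 1 ≤ p)
    (hg : MemLp g (ENNReal.ofReal p) (volume : Measure E3)) (c δ : ℝ) (hc0 : 0 ≤ c) (hδ : 0 ≤ δ)
    (hφ : eLpNorm ((φ.normed (volume : Measure E3) ⋆[lsmul ℝ ℝ, volume] g) - g)
      (ENNReal.ofReal p) volume ≤ ENNReal.ofReal δ) :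
    Integrable (fun x => |(1 - c) * (φ.normed (volume : Measure E3) ⋆[lsmul ℝ ℝ, volume] g) x
        - g x| ^ p) (volume : Measure E3) ∧
    ∫ x, |(1 - c) * (φ.normed (volume : Measure E3) ⋆[lsmul ℝ ℝ, volume] g) x - g x| ^ p
      ≤ (δ + c * (eLpNorm g (ENNReal.ofReal p) volume).toReal) ^ p := by
  have hp0 : 0 < p := by linarith
  have hP0 : ENNReal.ofReal p ≠ 0 := by positivity
  have hP1 : (1 : ENNReal) ≤ ENNReal.ofReal p := by
    rw [← ENNReal.ofReal_one]; exact ENNReal.ofReal_le_ofReal hp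
  have hgloc : LocallyIntegrable g (volume : Measure E3) := hg.locallyIntegrable hP1
  set U := φ.normed (volume : Measure E3) ⋆[lsmul ℝ ℝ, volume] g with hU
  have hUm : AEStronglyMeasurable U (volume : Measure E3) :=
    (continuous_convolution_normed φ g hgloc).aestronglyMeasurable
  have hUle : eLpNorm U (ENNReal.ofReal p) volume ≤ eLpNorm g (ENNReal.ofReal p) volume :=
    eLpNorm_convolution_normed_le φ g hg.1 p hp
  have hULp : MemLp U (ENNReal.ofReal p) (volume : Measure E3) := ⟨hUm, hUle.trans_lt hg.2⟩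
  set a : E3 → ℝ := fun x => (1 - c) * U x - g x with ha
  have hadec : a = (U - g) + (-c) • U := by
    ext x
    simp only [ha, Pi.add_apply, Pi.sub_apply, Pi.smul_apply, smul_eq_mul]
    ring
  have haLp : MemLp a (ENNReal.ofReal p) (volume : Measure E3) := by
    rw [hadec]
    exact (hULp.sub hg).add (hULp.const_smul _)
  have hale : eLpNorm a (ENNReal.ofReal p) volume
      ≤ ENNReal.ofReal δ + ENNReal.ofReal c * eLpNorm g (ENNReal.ofReal p) volume := by
    rw [hadec]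
    refine (eLpNorm_add_le (hUm.sub hg.1) (hUm.const_smul _) hP1).trans ?_
    gcongr
    rw [eLpNorm_const_smul]
    gcongr
    rw [enorm_neg, Real.enorm_eq_ofReal hc0]
  have hreal : (eLpNorm a (ENNReal.ofReal p) volume).toReal
      ≤ δ + c * (eLpNorm g (ENNReal.ofReal p) volume).toReal := by
    have h1 := ENNReal.toReal_mono (by
      exact ENNReal.add_ne_top.2 ⟨ENNReal.ofReal_ne_top,
        ENNReal.mul_ne_top ENNReal.ofReal_ne_top hg.2.ne⟩) hale
    rw [ENNReal.toReal_add ENNReal.ofReal_ne_top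
      (ENNReal.mul_ne_top ENNReal.ofReal_ne_top hg.2.ne), ENNReal.toReal_mul,
      ENNReal.toReal_ofReal hδ, ENNReal.toReal_ofReal hc0] at h1
    exact h1
  have hint : Integrable (fun x => ‖a x‖ ^ p) (volume : Measure E3) := by
    have := haLp.integrable_norm_rpow hP0 ENNReal.ofReal_ne_top
    rwa [ENNReal.toReal_ofReal hp0.le] at this
  have hI0 : 0 ≤ ∫ x, ‖a x‖ ^ p := integral_nonneg fun x => by positivity
  have heq : ∫ x, ‖a x‖ ^ p = ((eLpNorm a (ENNReal.ofReal p) volume).toReal) ^ p := by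
    rw [haLp.eLpNorm_eq_integral_rpow_norm hP0 ENNReal.ofReal_ne_top,
      ENNReal.toReal_ofReal hp0.le, ENNReal.toReal_ofReal (by positivity),
      ← Real.rpow_mul hI0, inv_mul_cancel₀ hp0.ne', Real.rpow_one]
  refine ⟨by simpa [Real.norm_eq_abs] using hint, ?_⟩
  have : ∫ x, |a x| ^ p = ∫ x, ‖a x‖ ^ p := by simp [Real.norm_eq_abs]
  rw [this, heq]
  exact Real.rpow_le_rpow ENNReal.toReal_nonneg hreal hp0.le

theorem norm_le_sum_abs (v : E3) : ‖v‖ ≤ ∑ i, |v i| := by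
  rw [EuclideanSpace.norm_eq]
  apply Real.sqrt_le_iff.2
  refine ⟨Finset.sum_nonneg fun i _ => abs_nonneg _, ?_⟩
  simpa [Real.norm_eq_abs] using
    Finset.sum_sq_le_sq_sum_of_nonneg (s := Finset.univ) (f := fun i => |v i|)
      (fun i _ => abs_nonneg _)

theorem frob_le_sum_abs (A : Matrix (Fin 3) (Fin 3) ℝ) : frob A ≤ ∑ q : Fin 3 × Fin 3, |A q.1 q.2| := by
  unfold frob
  apply Real.sqrt_le_iff.2
  refine ⟨Finset.sum_nonneg fun i _ => abs_nonneg _, ?_⟩
  have := Finset.sum_sq_le_sq_sum_of_nonneg (s := Finset.univ)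
    (f := fun q : Fin 3 × Fin 3 => |A q.1 q.2|) (fun i _ => abs_nonneg _)
  simpa [Fintype.sum_prod_type] using this

theorem frob_nonneg (A : Matrix (Fin 3) (Fin 3) ℝ) : 0 ≤ frob A := Real.sqrt_nonneg _

theorem norm_rpow_le (v : E3) (p : ℝ) (hp : 1 ≤ p) :
    ‖v‖ ^ p ≤ (3 : ℝ) ^ (p - 1) * ∑ i, |v i| ^ p := by
  have h1 : ‖v‖ ^ p ≤ (∑ i, |v i|) ^ p :=
    Real.rpow_le_rpow (norm_nonneg _) (norm_le_sum_abs v) (by linarith)
  have h2 := Real.rpow_sum_le_const_mul_sum_rpow (s := Finset.univ) (f := fun i => v i) hp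
  simp only [Finset.card_univ, Fintype.card_fin] at h2
  exact h1.trans (by exact_mod_cast h2)

theorem frob_rpow_le (A : Matrix (Fin 3) (Fin 3) ℝ) (p : ℝ) (hp : 1 ≤ p) :
    frob A ^ p ≤ (9 : ℝ) ^ (p - 1) * ∑ q : Fin 3 × Fin 3, |A q.1 q.2| ^ p := by
  have h1 : frob A ^ p ≤ (∑ q : Fin 3 × Fin 3, |A q.1 q.2|) ^ p :=
    Real.rpow_le_rpow (frob_nonneg _) (frob_le_sum_abs A) (by linarith)
  have h2 := Real.rpow_sum_le_const_mul_sum_rpow (s := Finset.univ)
    (f := fun q : Fin 3 × Fin 3 => A q.1 q.2) hp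
  simp only [Finset.card_univ, Fintype.card_prod, Fintype.card_fin] at h2
  refine h1.trans ?_
  norm_num at h2 ⊢
  exact h2

end Vale.Agent.Lib.P073
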