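import Vale.Agent.Lib.P073.Estimate

namespace Vale.Agent.Lib.P073

open MeasureTheory Filter Topology ContinuousLinearMap Metric
open scoped Convolution

/-- a common mollification radius for a finite family -/
theorem exists_common_radius {ι : Type} [Fintype ι] [Nonempty ι] (g : ι → E3 → ℝ) (p : ℝ)
    (hp : 1 ≤ p) (hg : ∀ i, MemLp (g i) (ENNReal.ofReal p) (volume : Measure E3))
    {δ : ENNReal} (hδ : δ ≠ 0) :
    ∃ r > 0, ∀ φ : ContDiffBump (0 : E3), φ.rOut ≤ r → ∀ i,
      eLpNorm ((φ.normed (volume : Measure E3) ⋆[lsmul ℝ ℝ, volume] g i) - g i)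
        (ENNReal.ofReal p) volume ≤ δ := by
  choose r hr0 hr using fun i => exists_radius_eLpNorm_convolution_sub_le (g i) p hp (hg i) hδ
  refine ⟨Finset.univ.inf' Finset.univ_nonempty r, ?_, fun φ hφ i => ?_⟩
  · rw [gt_iff_lt, Finset.lt_inf'_iff]
    exact fun i _ => hr0 i
  · exact hr i φ (hφ.trans (Finset.inf'_le _ (Finset.mem_univ i)))

theorem integrable_mul_of_compactSupport (Ω : Set E3) (g ψ : E3 → ℝ)
    (hg : Integrable g (volume.restrict Ω)) (hψ : Continuous ψ) (hψc : HasCompactSupport ψ) :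
    Integrable (fun x => g x * ψ x) (volume.restrict Ω) := by
  obtain ⟨C, hC⟩ := hψc.exists_bound_of_continuous hψ
  exact hg.mul_bdd (c := C) hψ.aestronglyMeasurable (Eventually.of_forall hC)

theorem isWeakPartial_sub (Ω : Set E3) (g₁ g₂ h₁ h₂ : E3 → ℝ) (v : E3)
    (hg₁ : Integrable g₁ (volume.restrict Ω)) (hg₂ : Integrable g₂ (volume.restrict Ω))
    (hh₁ : Integrable h₁ (volume.restrict Ω)) (hh₂ : Integrable h₂ (volume.restrict Ω))
    (hw₁ : IsWeakPartial Ω g₁ h₁ v) (hw₂ : IsWeakPartial Ω g₂ h₂ v) :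
    IsWeakPartial Ω (fun x => g₁ x - g₂ x) (fun x => h₁ x - h₂ x) v := by
  intro ψ hψ hψc hψΩ
  have hψ1 : ContDiff ℝ 1 ψ := hψ.of_le (by simp)
  have hcψ' : Continuous fun x => fderiv ℝ ψ x v :=
    (hψ1.continuous_fderiv (by simp)).clm_apply continuous_const
  have hsψ' : HasCompactSupport fun x => fderiv ℝ ψ x v := by
    refine hψc.mono' ?_
    intro x hx
    by_contra hxt
    exact hx (fderiv_apply_eq_zero_of_notMem_tsupport hxt v)
  simp only [sub_mul]
  rw [integral_sub (integrable_mul_of_compactSupport Ω g₁ _ hg₁ hcψ' hsψ')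
      (integrable_mul_of_compactSupport Ω g₂ _ hg₂ hcψ' hsψ'),
    integral_sub (integrable_mul_of_compactSupport Ω h₁ _ hh₁ hψ.continuous hψc)
      (integrable_mul_of_compactSupport Ω h₂ _ hh₂ hψ.continuous hψc),
    hw₁ ψ hψ hψc hψΩ, hw₂ ψ hψ hψc hψΩ]
  ring

end Vale.Agent.Lib.P073
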