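import Vale.Agent.Lib.P073.Final

namespace Vale.Agent.Lib.P073

open MeasureTheory Filter Topology ContinuousLinearMap Metric
open scoped Convolution

theorem monotone_approximable (p : ℝ) (hp : 1 ≤ p) (Ω : Set E3) (hΩo : IsOpen Ω)
    (hΩb : Bornology.IsBounded Ω) (f : E3 → E3) (G : E3 → Matrix (Fin 3) (Fin 3) ℝ)
    (hW : MemW1p p Ω f G)
    (hmono : ∀ x ∈ Ω, ∀ y ∈ Ω, 0 ≤ inner ℝ (f x - f y) (x - y))
    (K : Set E3) (hK : IsCompact K) (hKΩ : K ⊆ Ω) (hid : ∀ x ∈ Ω \ K, f x = x) :
    DiffeoApproximable p Ω Ω f := by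
  classical
  have hp0 : 0 < p := by linarith
  have hP1 : (1 : ENNReal) ≤ ENNReal.ofReal p := by
    rw [← ENNReal.ofReal_one]; exact ENNReal.ofReal_le_ofReal hp
  have hfin : IsFiniteMeasure ((volume : Measure E3).restrict Ω) :=
    ⟨by simpa using hΩb.measure_lt_top⟩
  set u : Fin 3 → E3 → ℝ := fun i => Ω.indicator (fun x => f x i - x i) with hu
  set H : Fin 3 → Fin 3 → E3 → ℝ :=
    fun i j => Ω.indicator (fun x => G x i j - (if i = j then 1 else 0)) with hH
  have hcoordLp : ∀ i : Fin 3, MemLp (fun x : E3 => x i) (ENNReal.ofReal p) (volume.restrict Ω) :=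
    fun i => memLp_restrict_of_continuous Ω hΩb _ (contDiff_coord i).continuous _
  have huLpΩ : ∀ i, MemLp (fun x => f x i - x i) (ENNReal.ofReal p) (volume.restrict Ω) :=
    fun i => (hW.1 i).sub (hcoordLp i)
  have huLp : ∀ i, MemLp (u i) (ENNReal.ofReal p) (volume : Measure E3) :=
    fun i => (memLp_indicator_iff_restrict hΩo.measurableSet).2 (huLpΩ i)
  have hHLpΩ : ∀ i j : Fin 3, MemLp (fun x => G x i j - (if i = j then (1 : ℝ) else 0))
      (ENNReal.ofReal p) (volume.restrict Ω) :=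
    fun i j => (hW.2.1 i j).sub (memLp_const _)
  have hHLp : ∀ i j, MemLp (H i j) (ENNReal.ofReal p) (volume : Measure E3) :=
    fun i j => (memLp_indicator_iff_restrict hΩo.measurableSet).2 (hHLpΩ i j)
  have huloc : ∀ i, LocallyIntegrable (u i) (volume : Measure E3) :=
    fun i => (huLp i).locallyIntegrable hP1
  have hHloc : ∀ i j, LocallyIntegrable (H i j) (volume : Measure E3) :=
    fun i j => (hHLp i j).locallyIntegrable hP1
  have hwΩ : ∀ i j : Fin 3, IsWeakPartial Ω (fun x => f x i - x i)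
      (fun x => G x i j - (if i = j then (1 : ℝ) else 0)) (EuclideanSpace.single j 1) := by
    intro i j
    refine isWeakPartial_sub Ω _ _ _ _ _ ((hW.1 i).integrable hP1) ((hcoordLp i).integrable hP1)
      ((hW.2.1 i j).integrable hP1) (integrable_const _) (hW.2.2 i j) ?_
    have := isWeakPartial_of_contDiff Ω (fun x : E3 => x i) ((contDiff_coord i).of_le (by simp))
      (EuclideanSpace.single j 1)
    simpa only [fderiv_coord] using this
  have hu0 : ∀ i x, x ∉ K → u i x = 0 := by
    intro i x hx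
    by_cases hxΩ : x ∈ Ω
    · simp only [hu, Set.indicator_of_mem hxΩ, hid x ⟨hxΩ, hx⟩, sub_self]
    · simp only [hu, Set.indicator_of_notMem hxΩ]
  have hw : ∀ i j, IsWeakPartial Set.univ (u i) (H i j) (EuclideanSpace.single j 1) := by
    intro i j
    refine isWeakPartial_univ_indicator Ω K hΩo hK hKΩ _ _ _ ((hHLpΩ i j).integrable hP1)
      (hwΩ i j) ?_
    intro x hx
    rw [hid x hx, sub_self]
  have hGM : ∀ a b : E3, 0 ≤ ‖a - b‖ ^ 2 + ∑ i, (u i a - u i b) * (a i - b i) := by
    intro a b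
    have h1 := global_monotone Ω K hΩo hK.isClosed hKΩ f hmono hid a b
    rw [inner_eq_sum] at h1
    have hft : ∀ (z : E3) (i : Fin 3), (if z ∈ Ω then f z else z) i = z i + u i z := by
      intro z i
      by_cases hz : z ∈ Ω
      · simp [hu, hz]
      · simp [hu, hz]
    rw [norm_sq_eq_sum, ← Finset.sum_add_distrib]
    refine le_of_le_of_eq h1 (Finset.sum_congr rfl fun i _ => ?_)
    simp only [PiLp.sub_apply, hft]
    ring
  obtain ⟨r0, hr0, hr0Ω⟩ := hK.exists_cthickening_subset_open hΩo hKΩ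
  -- radii
  have hδ : ∀ k : ℕ, ENNReal.ofReal (1 / ((k : ℝ) + 1)) ≠ 0 := by
    intro k
    have : (0 : ℝ) < 1 / ((k : ℝ) + 1) := by positivity
    simpa using this
  choose ru hru0 hru using fun k : ℕ => exists_common_radius u p hp huLp (hδ k)
  choose rH hrH0 hrH using fun k : ℕ => exists_common_radius
    (fun q : Fin 3 × Fin 3 => H q.1 q.2) p hp (fun q => hHLp q.1 q.2) (hδ k)
  set rr : ℕ → ℝ := fun k => min r0 (min (ru k) (rH k)) with hrr
  have hrr0 : ∀ k, 0 < rr k := fun k => lt_min hr0 (lt_min (hru0 k) (hrH0 k))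
  set φ : ℕ → ContDiffBump (0 : E3) :=
    fun k => ⟨rr k / 2, rr k, half_pos (hrr0 k), half_lt_self (hrr0 k)⟩ with hφ
  have hφr0 : ∀ k, (φ k).rOut ≤ r0 := fun k => min_le_left _ _
  have hφu : ∀ k, (φ k).rOut ≤ ru k := fun k => (min_le_right _ _).trans (min_le_left _ _)
  have hφH : ∀ k, (φ k).rOut ≤ rH k := fun k => (min_le_right _ _).trans (min_le_right _ _)
  set c : ℕ → ℝ := fun k => 1 / ((k : ℝ) + 2) with hc
  have hc0 : ∀ k, 0 < c k := fun k => by simp only [hc]; positivity
  have hc1 : ∀ k, c k ≤ 1 := fun k => by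
    simp only [hc]
    rw [div_le_one (by positivity)]
    have : (0 : ℝ) ≤ k := Nat.cast_nonneg k
    linarith
  have hcδ : ∀ k, c k ≤ 1 / ((k : ℝ) + 1) := fun k => by
    simp only [hc]
    apply one_div_le_one_div_of_le (by positivity)
    linarith
  refine ⟨G, fun k => approx (φ k) (c k) u, fun k => approxD (φ k) (c k) H, hW, fun k => ⟨?_, ?_⟩, ?_⟩
  · exact isDiffeoOn_approx (φ k) (c k) (hc0 k) (hc1 k) u huloc hGM K Ω hu0
      ((cthickening_mono (hφr0 k) K).trans hr0Ω)
  · exact memW1p_approx p Ω hΩb (φ k) (c k) u H huloc hHloc hw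
  -- convergence
  set M : ℝ := ∑ i, (eLpNorm (u i) (ENNReal.ofReal p) volume).toReal
    + ∑ q : Fin 3 × Fin 3, (eLpNorm (H q.1 q.2) (ENNReal.ofReal p) volume).toReal with hM
  have hMu : ∀ i, (eLpNorm (u i) (ENNReal.ofReal p) volume).toReal ≤ M := by
    intro i
    have h1 := Finset.single_le_sum (f := fun i => (eLpNorm (u i) (ENNReal.ofReal p) volume).toReal)
      (fun i _ => ENNReal.toReal_nonneg) (Finset.mem_univ i)
    have h2 : 0 ≤ ∑ q : Fin 3 × Fin 3, (eLpNorm (H q.1 q.2) (ENNReal.ofReal p) volume).toReal :=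
      Finset.sum_nonneg fun q _ => ENNReal.toReal_nonneg
    simp only [hM]
    linarith
  have hMH : ∀ q : Fin 3 × Fin 3, (eLpNorm (H q.1 q.2) (ENNReal.ofReal p) volume).toReal ≤ M := by
    intro q
    have h1 := Finset.single_le_sum
      (f := fun q : Fin 3 × Fin 3 => (eLpNorm (H q.1 q.2) (ENNReal.ofReal p) volume).toReal)
      (fun i _ => ENNReal.toReal_nonneg) (Finset.mem_univ q)
    have h2 : 0 ≤ ∑ i, (eLpNorm (u i) (ENNReal.ofReal p) volume).toReal :=
      Finset.sum_nonneg fun q _ => ENNReal.toReal_nonneg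
    simp only [hM]
    linarith
  have hM0 : 0 ≤ M := le_trans ENNReal.toReal_nonneg (hMu 0)
  set T : ℕ → ℝ := fun k => ((1 + M) * (1 / ((k : ℝ) + 1))) ^ p with hT
  have hest : ∀ (k : ℕ) (g : E3 → ℝ), MemLp g (ENNReal.ofReal p) (volume : Measure E3) →
      (eLpNorm g (ENNReal.ofReal p) volume).toReal ≤ M →
      eLpNorm (((φ k).normed (volume : Measure E3) ⋆[lsmul ℝ ℝ, volume] g) - g)
        (ENNReal.ofReal p) volume ≤ ENNReal.ofReal (1 / ((k : ℝ) + 1)) →
      Integrable (fun x => |(1 - c k) * ((φ k).normed (volume : Measure E3) ⋆[lsmul ℝ ℝ, volume] g) x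
        - g x| ^ p) (volume : Measure E3) ∧
      ∫ x, |(1 - c k) * ((φ k).normed (volume : Measure E3) ⋆[lsmul ℝ ℝ, volume] g) x - g x| ^ p
        ≤ T k := by
    intro k g hg hgM hgφ
    have hk : (0 : ℝ) ≤ 1 / ((k : ℝ) + 1) := by positivity
    obtain ⟨h1, h2⟩ := integral_abs_rpow_moll_le (φ k) g p hp hg (c k) _ (hc0 k).le hk hgφ
    refine ⟨h1, h2.trans ?_⟩
    apply Real.rpow_le_rpow _ _ hp0.le
    · exact add_nonneg hk (mul_nonneg (hc0 k).le ENNReal.toReal_nonneg)
    · have h3 : c k * (eLpNorm g (ENNReal.ofReal p) volume).toReal ≤ 1 / ((k : ℝ) + 1) * M :=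
        mul_le_mul (hcδ k) hgM ENNReal.toReal_nonneg hk
      nlinarith
  set Cst : ℝ := (3 : ℝ) ^ (p - 1) * 3 + (9 : ℝ) ^ (p - 1) * 9 with hCst
  have hbound : ∀ k, ∫ x in Ω, (‖approx (φ k) (c k) u x - f x‖ ^ p
      + frob (approxD (φ k) (c k) H x - G x) ^ p) ≤ Cst * T k := by
    intro k
    set a : Fin 3 → E3 → ℝ := fun i x =>
      |(1 - c k) * ((φ k).normed (volume : Measure E3) ⋆[lsmul ℝ ℝ, volume] u i) x - u i x| ^ p
      with ha
    set b : Fin 3 × Fin 3 → E3 → ℝ := fun q x =>
      |(1 - c k) * ((φ k).normed (volume : Measure E3) ⋆[lsmul ℝ ℝ, volume] H q.1 q.2) x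
        - H q.1 q.2 x| ^ p with hb
    have hau : ∀ i, Integrable (a i) (volume : Measure E3) ∧ ∫ x, a i x ≤ T k :=
      fun i => hest k (u i) (huLp i) (hMu i) (hru k (φ k) (hφu k) i)
    have hbH : ∀ q, Integrable (b q) (volume : Measure E3) ∧ ∫ x, b q x ≤ T k :=
      fun q => hest k (H q.1 q.2) (hHLp q.1 q.2) (hMH q) (hrH k (φ k) (hφH k) q)
    set B : E3 → ℝ := fun x => (3 : ℝ) ^ (p - 1) * ∑ i, a i x + (9 : ℝ) ^ (p - 1) * ∑ q, b q x
      with hB
    have hBint : Integrable B (volume : Measure E3) :=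
      ((integrable_finsetSum _ fun i _ => (hau i).1).const_mul _).add
        ((integrable_finsetSum _ fun q _ => (hbH q).1).const_mul _)
    have hB0 : ∀ x, 0 ≤ B x := by
      intro x
      simp only [hB, ha, hb]
      positivity
    have hpt : ∀ x ∈ Ω, ‖approx (φ k) (c k) u x - f x‖ ^ p
        + frob (approxD (φ k) (c k) H x - G x) ^ p ≤ B x := by
      intro x hx
      have h1 := norm_rpow_le (approx (φ k) (c k) u x - f x) p hp
      have h2 := frob_rpow_le (approxD (φ k) (c k) H x - G x) p hp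
      have e1 : ∀ i, |(approx (φ k) (c k) u x - f x) i| ^ p = a i x := by
        intro i
        simp only [ha, hu, PiLp.sub_apply, approx_apply, Set.indicator_of_mem hx]
        congr 2
        ring
      have e2 : ∀ q : Fin 3 × Fin 3, |(approxD (φ k) (c k) H x - G x) q.1 q.2| ^ p = b q x := by
        intro q
        simp only [hb, hH, approxD, Matrix.sub_apply, Matrix.of_apply, Set.indicator_of_mem hx]
        congr 2
        ring
      simp only [e1] at h1
      simp only [e2] at h2
      exact add_le_add h1 h2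
    calc ∫ x in Ω, (‖approx (φ k) (c k) u x - f x‖ ^ p + frob (approxD (φ k) (c k) H x - G x) ^ p)
        ≤ ∫ x in Ω, B x := by
          apply integral_mono_of_nonneg
          · exact Eventually.of_forall fun x => add_nonneg
              (Real.rpow_nonneg (norm_nonneg _) _) (Real.rpow_nonneg (frob_nonneg _) _)
          · exact hBint.integrableOn
          · exact (ae_restrict_iff' hΩo.measurableSet).2 (Eventually.of_forall hpt)
      _ ≤ ∫ x, B x := setIntegral_le_integral hBint (Eventually.of_forall hB0)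
      _ = (3 : ℝ) ^ (p - 1) * (∑ i, ∫ x, a i x) + (9 : ℝ) ^ (p - 1) * (∑ q, ∫ x, b q x) := by
          simp only [hB]
          rw [integral_add ((integrable_finsetSum _ fun i _ => (hau i).1).const_mul _)
            ((integrable_finsetSum _ fun q _ => (hbH q).1).const_mul _),
            integral_const_mul, integral_const_mul,
            integral_finsetSum _ fun i _ => (hau i).1, integral_finsetSum _ fun q _ => (hbH q).1]
      _ ≤ (3 : ℝ) ^ (p - 1) * (∑ _i : Fin 3, T k) + (9 : ℝ) ^ (p - 1) * (∑ _q : Fin 3 × Fin 3, T k) := by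
          gcongr with i _ q _
          · exact (hau i).2
          · exact (hbH q).2
      _ = Cst * T k := by
          simp only [Finset.sum_const, Finset.card_univ, Fintype.card_fin, Fintype.card_prod,
            nsmul_eq_mul, hCst]
          push_cast
          ring
  have hlim : Tendsto (fun k => Cst * T k) atTop (𝓝 0) := by
    have h1 : Tendsto (fun k : ℕ => (1 + M) * (1 / ((k : ℝ) + 1))) atTop (𝓝 ((1 + M) * 0)) :=
      tendsto_one_div_add_atTop_nhds_zero_nat.const_mul _
    rw [mul_zero] at h1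
    have h2 : Tendsto T atTop (𝓝 ((0 : ℝ) ^ p)) := h1.rpow_const (Or.inr hp0.le)
    rw [Real.zero_rpow hp0.ne'] at h2
    simpa using h2.const_mul Cst
  refine squeeze_zero (fun k => ?_) hbound hlim
  exact integral_nonneg fun x => add_nonneg
    (Real.rpow_nonneg (norm_nonneg _) _) (Real.rpow_nonneg (frob_nonneg _) _)

end Vale.Agent.Lib.P073
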