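import Vale.Agent.Lib.P073.Young

namespace Vale.Agent.Lib.P073

open MeasureTheory Filter Topology ContinuousLinearMap Metric
open scoped ENNReal Convolution

variable {E : Type*} [NormedAddCommGroup E] [InnerProductSpace ℝ E] [FiniteDimensional ℝ E]
  [MeasurableSpace E] [BorelSpace E]

theorem lintegral_ofReal_normed (φ : ContDiffBump (0 : E)) :
    ∫⁻ t, ENNReal.ofReal (φ.normed (volume : Measure E) t) = 1 := by
  rw [← ofReal_integral_eq_lintegral_ofReal φ.integrable_normed
    (Eventually.of_forall fun t => φ.nonneg_normed t), φ.integral_normed, ENNReal.ofReal_one]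

theorem convolutionExists_normed (φ : ContDiffBump (0 : E)) (g : E → ℝ)
    (hg : LocallyIntegrable g (volume : Measure E)) :
    ConvolutionExists (φ.normed (volume : Measure E)) g (lsmul ℝ ℝ) volume :=
  φ.hasCompactSupport_normed.convolutionExists_left _ φ.continuous_normed hg

theorem continuous_convolution_normed (φ : ContDiffBump (0 : E)) (g : E → ℝ)
    (hg : LocallyIntegrable g (volume : Measure E)) :
    Continuous (φ.normed (volume : Measure E) ⋆[lsmul ℝ ℝ, volume] g) :=
  φ.hasCompactSupport_normed.continuous_convolution_left _ φ.continuous_normed hg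

theorem convolution_normed_sub (φ : ContDiffBump (0 : E)) (g h : E → ℝ)
    (hg : LocallyIntegrable g (volume : Measure E)) (hh : LocallyIntegrable h (volume : Measure E))
    (x : E) :
    (φ.normed (volume : Measure E) ⋆[lsmul ℝ ℝ, volume] (g - h)) x
      = (φ.normed (volume : Measure E) ⋆[lsmul ℝ ℝ, volume] g) x
        - (φ.normed (volume : Measure E) ⋆[lsmul ℝ ℝ, volume] h) x := by
  simp only [convolution_def, Pi.sub_apply, map_sub]
  exact integral_sub (convolutionExists_normed φ g hg x) (convolutionExists_normed φ h hh x)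

theorem eLpNorm_convolution_normed_le (φ : ContDiffBump (0 : E)) (g : E → ℝ)
    (hg : AEStronglyMeasurable g (volume : Measure E)) (p : ℝ) (hp : 1 ≤ p) :
    eLpNorm (φ.normed (volume : Measure E) ⋆[lsmul ℝ ℝ, volume] g) (ENNReal.ofReal p) volume
      ≤ eLpNorm g (ENNReal.ofReal p) volume :=
  eLpNorm_convolution_le _ φ.nonneg_normed φ.continuous_normed (lintegral_ofReal_normed φ) g hg p hp

/-- Mollification converges in `L^p`, `1 ≤ p < ∞`. -/
theorem exists_radius_eLpNorm_convolution_sub_le (g : E → ℝ) (p : ℝ) (hp : 1 ≤ p)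
    (hg : MemLp g (ENNReal.ofReal p) (volume : Measure E)) {δ : ℝ≥0∞} (hδ : δ ≠ 0) :
    ∃ r > 0, ∀ φ : ContDiffBump (0 : E), φ.rOut ≤ r →
      eLpNorm ((φ.normed (volume : Measure E) ⋆[lsmul ℝ ℝ, volume] g) - g)
        (ENNReal.ofReal p) volume ≤ δ := by
  have hp0 : 0 < p := by linarith
  have hP1 : (1 : ℝ≥0∞) ≤ ENNReal.ofReal p := by
    rw [← ENNReal.ofReal_one]; exact ENNReal.ofReal_le_ofReal hp
  have hδ3 : δ / 3 ≠ 0 := by
    simp [ENNReal.div_eq_zero_iff, hδ]
  obtain ⟨h, hhc, hgh, hhcont, hhLp⟩ :=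
    hg.exists_hasCompactSupport_eLpNorm_sub_le ENNReal.ofReal_ne_top hδ3
  set S : Set E := cthickening 1 (tsupport h) with hS
  have hScomp : IsCompact S := hhc.isCompact.cthickening
  have hSfin : (volume S) ^ (ENNReal.ofReal p).toReal⁻¹ ≠ ∞ := by
    apply ENNReal.rpow_ne_top_of_nonneg (by positivity) hScomp.measure_lt_top.ne
  obtain ⟨w, hw0, hw⟩ := ENNReal.exists_nnreal_pos_mul_lt hSfin hδ3
  have huc : UniformContinuous h := hhc.uniformContinuous_of_continuous hhcont
  obtain ⟨r1, hr1, hr1'⟩ := Metric.uniformContinuous_iff.1 huc w (by exact_mod_cast hw0)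
  have hgloc : LocallyIntegrable g (volume : Measure E) := hg.locallyIntegrable hP1
  have hhloc : LocallyIntegrable h (volume : Measure E) := hhLp.locallyIntegrable hP1
  refine ⟨min r1 1, lt_min hr1 one_pos, fun φ hφ => ?_⟩
  set η := φ.normed (volume : Measure E) with hη
  have hφ1 : φ.rOut ≤ r1 := hφ.trans (min_le_left _ _)
  have hφ2 : φ.rOut ≤ 1 := hφ.trans (min_le_right _ _)
  -- the three pieces
  have hdecomp : (η ⋆[lsmul ℝ ℝ, volume] g) - g
      = (η ⋆[lsmul ℝ ℝ, volume] (g - h)) + (((η ⋆[lsmul ℝ ℝ, volume] h) - h) + (h - g)) := by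
    ext x
    simp only [Pi.sub_apply, Pi.add_apply, hη, convolution_normed_sub φ g h hgloc hhloc x]
    ring
  have hA : eLpNorm (η ⋆[lsmul ℝ ℝ, volume] (g - h)) (ENNReal.ofReal p) volume ≤ δ / 3 :=
    (eLpNorm_convolution_normed_le φ (g - h) (hg.1.sub hhLp.1) p hp).trans hgh
  have hC : eLpNorm (h - g) (ENNReal.ofReal p) volume ≤ δ / 3 := by
    rw [← eLpNorm_neg, neg_sub]; exact hgh
  have hB : eLpNorm ((η ⋆[lsmul ℝ ℝ, volume] h) - h) (ENNReal.ofReal p) volume ≤ δ / 3 := by
    have hsupp : Function.support ((η ⋆[lsmul ℝ ℝ, volume] h) - h) ⊆ S := by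
      intro x hx
      by_contra hxS
      apply hx
      have hz : ∀ y ∈ ball x φ.rOut, h y = 0 := by
        intro y hy
        by_contra hy0
        apply hxS
        have hyt : y ∈ tsupport h := subset_tsupport _ hy0
        rw [hS, mem_cthickening_iff]
        refine (Metric.infEDist_le_edist_of_mem hyt).trans ?_
        rw [edist_dist]
        apply ENNReal.ofReal_le_ofReal
        rw [dist_comm]
        exact (mem_ball.1 hy).le.trans hφ2
      have hx0 : h x = 0 := hz x (mem_ball_self φ.rOut_pos)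
      have := φ.normed_convolution_eq_right (μ := (volume : Measure E)) (g := h) (x₀ := x)
        (fun y hy => by rw [hz y hy, hx0])
      simp only [Pi.sub_apply, hη, this, sub_self]
    rw [← eLpNorm_restrict_eq_of_support_subset hsupp]
    have hbound : ∀ᵐ x ∂(volume.restrict S), ‖((η ⋆[lsmul ℝ ℝ, volume] h) - h) x‖ ≤ w := by
      refine Eventually.of_forall fun x => ?_
      have := φ.dist_normed_convolution_le (μ := (volume : Measure E)) (g := h) (x₀ := x)
        (ε := w) hhcont.aestronglyMeasurable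
        (fun y hy => (hr1' (lt_of_lt_of_le (mem_ball.1 hy) hφ1)).le)
      rw [dist_eq_norm] at this
      exact this
    refine (eLpNorm_le_of_ae_bound hbound).trans ?_
    rw [Measure.restrict_apply MeasurableSet.univ, Set.univ_inter, mul_comm,
      ENNReal.ofReal_coe_nnreal]
    exact hw.le
  have mA : AEStronglyMeasurable (η ⋆[lsmul ℝ ℝ, volume] (g - h)) (volume : Measure E) :=
    (continuous_convolution_normed φ (g - h) (hgloc.sub hhloc)).aestronglyMeasurable
  have mB : AEStronglyMeasurable ((η ⋆[lsmul ℝ ℝ, volume] h) - h) (volume : Measure E) :=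
    ((continuous_convolution_normed φ h hhloc).sub hhcont).aestronglyMeasurable
  have mC : AEStronglyMeasurable (h - g) (volume : Measure E) := hhLp.1.sub hg.1
  rw [hdecomp]
  calc eLpNorm ((η ⋆[lsmul ℝ ℝ, volume] (g - h)) + (((η ⋆[lsmul ℝ ℝ, volume] h) - h) + (h - g)))
        (ENNReal.ofReal p) volume
      ≤ eLpNorm (η ⋆[lsmul ℝ ℝ, volume] (g - h)) (ENNReal.ofReal p) volume
        + eLpNorm (((η ⋆[lsmul ℝ ℝ, volume] h) - h) + (h - g)) (ENNReal.ofReal p) volume :=
        eLpNorm_add_le mA (mB.add mC) hP1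
    _ ≤ eLpNorm (η ⋆[lsmul ℝ ℝ, volume] (g - h)) (ENNReal.ofReal p) volume
        + (eLpNorm ((η ⋆[lsmul ℝ ℝ, volume] h) - h) (ENNReal.ofReal p) volume
          + eLpNorm (h - g) (ENNReal.ofReal p) volume) := by
        gcongr
        exact eLpNorm_add_le mB mC hP1
    _ ≤ δ / 3 + (δ / 3 + δ / 3) := by gcongr
    _ = δ := by
        rw [← add_assoc]
        exact ENNReal.add_thirds δ

end Vale.Agent.Lib.P073
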