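import Vale.Agent.Lib.P073.Mollify

namespace Vale.Agent.Lib.P073

open MeasureTheory Filter Topology ContinuousLinearMap Metric
open scoped ContDiff Convolution

variable {E : Type*} [NormedAddCommGroup E] [InnerProductSpace ℝ E] [FiniteDimensional ℝ E]
  [MeasurableSpace E] [BorelSpace E]

/-- `h` is the weak partial derivative of `g` in the direction `v` on `Ω`. -/
def IsWeakPartial (Ω : Set E) (g h : E → ℝ) (v : E) : Prop :=
  ∀ φ : E → ℝ, ContDiff ℝ ∞ φ → HasCompactSupport φ → tsupport φ ⊆ Ω →
    ∫ x in Ω, g x * fderiv ℝ φ x v = - ∫ x in Ω, h x * φ x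

theorem fderiv_apply_eq_zero_of_notMem_tsupport {φ : E → ℝ} {x : E} (hx : x ∉ tsupport φ) (v : E) :
    fderiv ℝ φ x v = 0 := by
  rw [fderiv_of_notMem_tsupport ℝ hx]
  rfl

/-- A `C^1` function has its classical partial derivative as weak partial derivative. -/
theorem isWeakPartial_of_contDiff (Ω : Set E) (g : E → ℝ) (hg : ContDiff ℝ 1 g) (v : E) :
    IsWeakPartial Ω g (fun x => fderiv ℝ g x v) v := by
  intro φ hφ hφc hφΩ
  have hφ1 : ContDiff ℝ 1 φ := hφ.of_le (by simp)
  have hcφ' : Continuous fun x => fderiv ℝ φ x v :=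
    (hφ1.continuous_fderiv (by simp)).clm_apply continuous_const
  have hcg' : Continuous fun x => fderiv ℝ g x v :=
    (hg.continuous_fderiv (by simp)).clm_apply continuous_const
  have hsφ' : HasCompactSupport fun x => fderiv ℝ φ x v := by
    refine hφc.mono' ?_
    intro x hx
    by_contra hxt
    exact hx (fderiv_apply_eq_zero_of_notMem_tsupport hxt v)
  rw [setIntegral_eq_integral_of_forall_compl_eq_zero, setIntegral_eq_integral_of_forall_compl_eq_zero]
  · apply integral_mul_fderiv_eq_neg_fderiv_mul_of_integrable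
    · exact (hcg'.mul hφ.continuous).integrable_of_hasCompactSupport hφc.mul_left
    · exact (hg.continuous.mul hcφ').integrable_of_hasCompactSupport hsφ'.mul_left
    · exact (hg.continuous.mul hφ.continuous).integrable_of_hasCompactSupport hφc.mul_left
    · intro x _
      exact hg.differentiable (by simp) x
    · intro x _
      exact hφ1.differentiable (by simp) x
  · intro x hx
    have : x ∉ tsupport φ := fun h => hx (hφΩ h)
    rw [image_eq_zero_of_notMem_tsupport this, mul_zero]
  · intro x hx
    have : x ∉ tsupport φ := fun h => hx (hφΩ h)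
    rw [fderiv_apply_eq_zero_of_notMem_tsupport this, mul_zero]

/-- The derivative of a mollification is the mollification of the weak derivative. -/
theorem fderiv_convolution_normed (φ : ContDiffBump (0 : E)) (g h : E → ℝ) (v : E)
    (hg : LocallyIntegrable g (volume : Measure E))
    (hw : IsWeakPartial Set.univ g h v) (x : E) :
    fderiv ℝ (φ.normed (volume : Measure E) ⋆[lsmul ℝ ℝ, volume] g) x v
      = (φ.normed (volume : Measure E) ⋆[lsmul ℝ ℝ, volume] h) x := by
  set η := φ.normed (volume : Measure E) with hη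
  have hηs : ContDiff ℝ ∞ η := φ.contDiff_normed
  have hη1 : ContDiff ℝ 1 η := φ.contDiff_normed
  have hηc : HasCompactSupport η := φ.hasCompactSupport_normed
  have hd := hηc.hasFDerivAt_convolution_left (lsmul ℝ ℝ) hη1 hg x
  rw [hd.fderiv]
  have hex : ConvolutionExistsAt (fderiv ℝ η) g x ((lsmul ℝ ℝ).precompL E) volume :=
    (hηc.fderiv ℝ).convolutionExists_left _ (hη1.continuous_fderiv (by simp)) hg x
  rw [convolution_def, ContinuousLinearMap.integral_apply hex]
  simp only [precompL_apply, lsmul_apply, smul_eq_mul]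
  -- test function
  set ψ : E → ℝ := fun s => η (x - s) with hψ
  have hψs : ContDiff ℝ ∞ ψ := hηs.comp (contDiff_const.sub contDiff_id)
  have hψc : HasCompactSupport ψ := hηc.comp_homeomorph (Homeomorph.subLeft x)
  have hψd : ∀ s, fderiv ℝ ψ s v = - fderiv ℝ η (x - s) v := by
    intro s
    have h1 : HasFDerivAt (fun s : E => x - s) (-(ContinuousLinearMap.id ℝ E)) s :=
      (hasFDerivAt_id s).const_sub x
    have h2 : HasFDerivAt η (fderiv ℝ η (x - s)) (x - s) :=
      (hη1.differentiable (by simp) _).hasFDerivAt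
    have h3 := h2.comp s h1
    have h4 : fderiv ℝ ψ s = (fderiv ℝ η (x - s)).comp (-(ContinuousLinearMap.id ℝ E)) := h3.fderiv
    rw [h4]
    simp
  have hw' := hw ψ hψs hψc (Set.subset_univ _)
  simp only [Measure.restrict_univ, hψd, mul_neg, integral_neg, neg_inj] at hw'
  rw [convolution_lsmul_swap]
  simp only [smul_eq_mul]
  have e1 : ∫ t, fderiv ℝ η t v * g (x - t) = ∫ s, g s * fderiv ℝ η (x - s) v := by
    rw [← integral_sub_left_eq_self (fun t => fderiv ℝ η t v * g (x - t)) volume x]
    refine integral_congr_ae (Eventually.of_forall fun s => ?_)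
    simp only [sub_sub_cancel]
    ring
  rw [e1, hw']
  refine integral_congr_ae (Eventually.of_forall fun s => ?_)
  simp only [hψ]
  ring

end Vale.Agent.Lib.P073
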