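import Mathlib

namespace Vale.Agent.Lib.P073

open MeasureTheory Filter Topology ContinuousLinearMap
open scoped ContDiff ENNReal Convolution

variable {E : Type*} [NormedAddCommGroup E] [InnerProductSpace ℝ E] [FiniteDimensional ℝ E]
  [MeasurableSpace E] [BorelSpace E]

/-- Jensen-type pointwise bound for the convolution with a probability density. -/
theorem enorm_convolution_rpow_le (η : E → ℝ) (hη0 : ∀ t, 0 ≤ η t) (hηc : Continuous η)
    (hη1 : ∫⁻ t, ENNReal.ofReal (η t) = 1) (g : E → ℝ)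
    (hg : AEStronglyMeasurable g (volume : Measure E)) (p : ℝ) (hp : 1 ≤ p) (x : E) :
    ‖(η ⋆[lsmul ℝ ℝ, volume] g) x‖ₑ ^ p ≤ ∫⁻ t, ENNReal.ofReal (η t) * ‖g (x - t)‖ₑ ^ p := by
  have hp0 : 0 < p := by linarith
  set w : E → ℝ≥0∞ := fun t => ENNReal.ofReal (η t) with hw
  have hwm : Measurable w := hηc.measurable.ennreal_ofReal
  set ν : Measure E := volume.withDensity w with hν
  have hprob : IsProbabilityMeasure ν := ⟨by rw [hν, withDensity_apply _ MeasurableSet.univ]; simpa using hη1⟩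
  have hgx : AEStronglyMeasurable (fun t => g (x - t)) (volume : Measure E) :=
    hg.comp_quasiMeasurePreserving (quasiMeasurePreserving_sub_left volume x)
  have hgxν : AEStronglyMeasurable (fun t => g (x - t)) ν :=
    hgx.mono_ac (withDensity_absolutelyContinuous _ _)
  have h1 : ‖(η ⋆[lsmul ℝ ℝ, volume] g) x‖ₑ ≤ ∫⁻ t, ‖g (x - t)‖ₑ ∂ν := by
    rw [convolution_def, hν, lintegral_withDensity_eq_lintegral_mul₀ hwm.aemeasurable hgx.enorm]
    refine (enorm_integral_le_lintegral_enorm _).trans (le_of_eq ?_)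
    refine lintegral_congr fun t => ?_
    simp only [lsmul_apply, smul_eq_mul, Pi.mul_apply, hw, enorm_mul]
    rw [Real.enorm_eq_ofReal (hη0 t)]
  have h2 : ∫⁻ t, ‖g (x - t)‖ₑ ∂ν ≤ (∫⁻ t, ‖g (x - t)‖ₑ ^ p ∂ν) ^ (1 / p) := by
    have hle : (1 : ℝ≥0∞) ≤ ENNReal.ofReal p := by
      rw [← ENNReal.ofReal_one]; exact ENNReal.ofReal_le_ofReal hp
    have := eLpNorm_le_eLpNorm_of_exponent_le hle hgxν
    rw [eLpNorm_one_eq_lintegral_enorm,
      eLpNorm_eq_lintegral_rpow_enorm_toReal (by positivity) ENNReal.ofReal_ne_top,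
      ENNReal.toReal_ofReal hp0.le] at this
    exact this
  have h3 : ∫⁻ t, ‖g (x - t)‖ₑ ^ p ∂ν = ∫⁻ t, ENNReal.ofReal (η t) * ‖g (x - t)‖ₑ ^ p := by
    rw [hν, lintegral_withDensity_eq_lintegral_mul₀ hwm.aemeasurable (hgx.enorm.pow_const p)]
    rfl
  calc ‖(η ⋆[lsmul ℝ ℝ, volume] g) x‖ₑ ^ p
      ≤ ((∫⁻ t, ‖g (x - t)‖ₑ ^ p ∂ν) ^ (1 / p)) ^ p := by
        gcongr
        exact h1.trans h2
    _ = ∫⁻ t, ‖g (x - t)‖ₑ ^ p ∂ν := by
        rw [← ENNReal.rpow_mul, one_div, inv_mul_cancel₀ hp0.ne', ENNReal.rpow_one]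
    _ = _ := h3

/-- Young's inequality `‖η ⋆ g‖_p ≤ ‖g‖_p` for a probability density `η`. -/
theorem eLpNorm_convolution_le (η : E → ℝ) (hη0 : ∀ t, 0 ≤ η t) (hηc : Continuous η)
    (hη1 : ∫⁻ t, ENNReal.ofReal (η t) = 1) (g : E → ℝ)
    (hg : AEStronglyMeasurable g (volume : Measure E)) (p : ℝ) (hp : 1 ≤ p) :
    eLpNorm (η ⋆[lsmul ℝ ℝ, volume] g) (ENNReal.ofReal p) volume
      ≤ eLpNorm g (ENNReal.ofReal p) volume := by
  have hp0 : 0 < p := by linarith
  rw [eLpNorm_eq_lintegral_rpow_enorm_toReal (by positivity) ENNReal.ofReal_ne_top,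
    eLpNorm_eq_lintegral_rpow_enorm_toReal (by positivity) ENNReal.ofReal_ne_top,
    ENNReal.toReal_ofReal hp0.le]
  refine ENNReal.rpow_le_rpow ?_ (by positivity)
  calc ∫⁻ x, ‖(η ⋆[lsmul ℝ ℝ, volume] g) x‖ₑ ^ p
      ≤ ∫⁻ x, ∫⁻ t, ENNReal.ofReal (η t) * ‖g (x - t)‖ₑ ^ p :=
        lintegral_mono fun x => enorm_convolution_rpow_le η hη0 hηc hη1 g hg p hp x
    _ = ∫⁻ t, ∫⁻ x, ENNReal.ofReal (η t) * ‖g (x - t)‖ₑ ^ p := by
        apply lintegral_lintegral_swap
        have h1 : AEStronglyMeasurable (fun q : E × E => g (q.1 - q.2))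
            ((volume : Measure E).prod (volume : Measure E)) :=
          hg.comp_quasiMeasurePreserving (quasiMeasurePreserving_sub volume volume)
        have h2 : AEMeasurable (fun q : E × E => ENNReal.ofReal (η q.2))
            ((volume : Measure E).prod (volume : Measure E)) :=
          (hηc.measurable.comp measurable_snd).ennreal_ofReal.aemeasurable
        exact h2.mul (h1.enorm.pow_const p)
    _ = ∫⁻ t, ENNReal.ofReal (η t) * ∫⁻ x, ‖g x‖ₑ ^ p := by
        refine lintegral_congr fun t => ?_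
        rw [lintegral_const_mul' _ _ ENNReal.ofReal_ne_top]
        congr 1
        exact lintegral_sub_right_eq_self (fun x => ‖g x‖ₑ ^ p) t
    _ = ∫⁻ x, ‖g x‖ₑ ^ p := by
        rw [lintegral_mul_const _ hηc.measurable.ennreal_ofReal, hη1, one_mul]

end Vale.Agent.Lib.P073
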